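import Mathlib

/-!
# Row 82 (S0109) — WP-4P, first half: the abstract telescoping lemma

Two functions on `[0,1]` with subgradient selections that are uniformly `ε`-close have
increments that are `ε`-close.  Statement copied verbatim from
`Crest/Agent/Helper75/OT/Spec.lean` (`Spec.telescoping`); Mathlib only.
-/

set_option autoImplicit false

namespace Crest.Agent.Helper75.OT

namespace TelescopingAux

/-- Grid points `i / n` lie in `[0,1]` for `i ≤ n`, `0 < n`. -/
theorem grid_mem {n i : ℕ} (hn : 0 < n) (hi : i ≤ n) :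
    ((i : ℝ) / n) ∈ Set.Icc (0 : ℝ) 1 := by
  have hn' : (0 : ℝ) < n := by exact_mod_cast hn
  constructor
  · positivity
  · rw [div_le_one hn']
    exact_mod_cast hi

/-- Riemann-sum sandwich for a function with a subgradient selection on `[0,1]`. -/
theorem sandwich (h p : ℝ → ℝ)
    (H : ∀ t ∈ Set.Icc (0 : ℝ) 1, ∀ t' ∈ Set.Icc (0 : ℝ) 1, h t + p t * (t' - t) ≤ h t')
    {n : ℕ} (hn : 0 < n) :
    (∑ i ∈ Finset.range n, p ((i : ℝ) / n)) / n ≤ h 1 - h 0 ∧
      h 1 - h 0 ≤ (∑ i ∈ Finset.range n, p (((i + 1 : ℕ) : ℝ) / n)) / n := by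
  have hn' : (0 : ℝ) < n := by exact_mod_cast hn
  have htel : ∑ i ∈ Finset.range n, (h (((i + 1 : ℕ) : ℝ) / n) - h ((i : ℝ) / n)) = h 1 - h 0 := by
    rw [Finset.sum_range_sub (fun i : ℕ => h ((i : ℝ) / n)) n]
    simp [div_self hn'.ne']
  have hstep : ∀ i : ℕ, (((i + 1 : ℕ) : ℝ) / n) - ((i : ℝ) / n) = 1 / n := by
    intro i
    push_cast
    ring
  constructor
  · rw [← htel, Finset.sum_div]
    apply Finset.sum_le_sum
    intro i hi
    have hi' : i < n := Finset.mem_range.mp hi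
    have h1 := H _ (grid_mem hn hi'.le) _ (grid_mem hn (Nat.succ_le_of_lt hi'))
    rw [hstep i] at h1
    have : p ((i : ℝ) / n) / n = p ((i : ℝ) / n) * (1 / n) := by ring
    linarith
  · rw [← htel, Finset.sum_div]
    apply Finset.sum_le_sum
    intro i hi
    have hi' : i < n := Finset.mem_range.mp hi
    have h1 := H _ (grid_mem hn (Nat.succ_le_of_lt hi')) _ (grid_mem hn hi'.le)
    have hstep' : ((i : ℝ) / n) - (((i + 1 : ℕ) : ℝ) / n) = -(1 / n) := by
      rw [← hstep i]; ring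
    rw [hstep'] at h1
    have : p (((i + 1 : ℕ) : ℝ) / n) / n = p (((i + 1 : ℕ) : ℝ) / n) * (1 / n) := by ring
    linarith

end TelescopingAux

open TelescopingAux in
/-- Abstract telescoping lemma: two functions on `[0,1]` with subgradient selections that are
uniformly `ε`-close have increments that are `ε`-close. -/
theorem telescoping (h0 h1 p0 p1 : ℝ → ℝ) (ε : ℝ)
    (H0 : ∀ t ∈ Set.Icc (0 : ℝ) 1, ∀ t' ∈ Set.Icc (0 : ℝ) 1, h0 t + p0 t * (t' - t) ≤ h0 t')
    (H1 : ∀ t ∈ Set.Icc (0 : ℝ) 1, ∀ t' ∈ Set.Icc (0 : ℝ) 1, h1 t + p1 t * (t' - t) ≤ h1 t')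
    (hp : ∀ t ∈ Set.Icc (0 : ℝ) 1, |p1 t - p0 t| ≤ ε) :
    |(h1 1 - h1 0) - (h0 1 - h0 0)| ≤ ε := by
  set D : ℝ := (h1 1 - h1 0) - (h0 1 - h0 0) with hD
  set c : ℝ := |p0 1 - p0 0| with hc
  -- the key bound for every grid size
  have key : ∀ n : ℕ, 0 < n → |D| ≤ ε + c / n := by
    intro n hn
    have hn' : (0 : ℝ) < n := by exact_mod_cast hn
    obtain ⟨l0, u0⟩ := sandwich h0 p0 H0 hn
    obtain ⟨l1, u1⟩ := sandwich h1 p1 H1 hn
    -- telescoping of p0 along the grid
    have htel : ∑ i ∈ Finset.range n, (p0 (((i + 1 : ℕ) : ℝ) / n) - p0 ((i : ℝ) / n))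
        = p0 1 - p0 0 := by
      rw [Finset.sum_range_sub (fun i : ℕ => p0 ((i : ℝ) / n)) n]
      simp [div_self hn'.ne']
    -- sums of the differences p1 - p0 are bounded by n * ε
    have hsum_up : ∑ i ∈ Finset.range n,
        (p1 (((i + 1 : ℕ) : ℝ) / n) - p0 (((i + 1 : ℕ) : ℝ) / n)) ≤ n * ε := by
      calc ∑ i ∈ Finset.range n,
            (p1 (((i + 1 : ℕ) : ℝ) / n) - p0 (((i + 1 : ℕ) : ℝ) / n))
          ≤ ∑ _i ∈ Finset.range n, ε := by
            apply Finset.sum_le_sum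
            intro i hi
            have hi' : i < n := Finset.mem_range.mp hi
            exact (abs_le.mp (hp _ (grid_mem hn (Nat.succ_le_of_lt hi')))).2
        _ = n * ε := by simp
    have hsum_lo : -(n * ε) ≤ ∑ i ∈ Finset.range n, (p1 ((i : ℝ) / n) - p0 ((i : ℝ) / n)) := by
      calc -(n * ε) = ∑ _i ∈ Finset.range n, (-ε) := by simp
        _ ≤ ∑ i ∈ Finset.range n, (p1 ((i : ℝ) / n) - p0 ((i : ℝ) / n)) := by
            apply Finset.sum_le_sum
            intro i hi
            have hi' : i < n := Finset.mem_range.mp hi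
            exact (abs_le.mp (hp _ (grid_mem hn hi'.le))).1
    -- abbreviations for the four Riemann sums
    set A0 : ℝ := ∑ i ∈ Finset.range n, p0 ((i : ℝ) / n) with hA0
    set B0 : ℝ := ∑ i ∈ Finset.range n, p0 (((i + 1 : ℕ) : ℝ) / n) with hB0
    set A1 : ℝ := ∑ i ∈ Finset.range n, p1 ((i : ℝ) / n) with hA1
    set B1 : ℝ := ∑ i ∈ Finset.range n, p1 (((i + 1 : ℕ) : ℝ) / n) with hB1
    have htel' : B0 - A0 = p0 1 - p0 0 := by
      rw [← htel, hA0, hB0, Finset.sum_sub_distrib]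
    have hup' : B1 - B0 ≤ n * ε := by
      rw [hB1, hB0, ← Finset.sum_sub_distrib]; exact hsum_up
    have hlo' : -(n * ε) ≤ A1 - A0 := by
      rw [hA1, hA0, ← Finset.sum_sub_distrib]; exact hsum_lo
    have hcabs := abs_le.mp (le_refl c)
    have hc1 : p0 1 - p0 0 ≤ c := le_abs_self _
    have hc2 : -c ≤ p0 1 - p0 0 := neg_abs_le _
    -- upper bound: D ≤ (B1 - A0)/n
    have hDup : D ≤ ε + c / n := by
      have h1 : D ≤ B1 / n - A0 / n := by rw [hD]; linarith
      have h2 : B1 / n - A0 / n = (B1 - B0) / n + (B0 - A0) / n := by ring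
      have h3 : (B1 - B0) / n ≤ ε := by
        rw [div_le_iff₀ hn']; linarith
      have h4 : (B0 - A0) / n ≤ c / n := by
        apply div_le_div_of_nonneg_right _ hn'.le
        linarith
      linarith
    have hDlo : -(ε + c / n) ≤ D := by
      have h1 : A1 / n - B0 / n ≤ D := by rw [hD]; linarith
      have h2 : A1 / n - B0 / n = (A1 - A0) / n - (B0 - A0) / n := by ring
      have h3 : -ε ≤ (A1 - A0) / n := by
        rw [le_div_iff₀ hn']; linarith
      have h4 : (B0 - A0) / n ≤ c / n := by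
        apply div_le_div_of_nonneg_right _ hn'.le
        linarith
      linarith
    exact abs_le.mpr ⟨hDlo, hDup⟩
  -- let n → ∞
  by_contra hcon'
  have hcon : ε < |D| := not_le.mp hcon'
  have hpos : 0 < |D| - ε := by linarith
  obtain ⟨n, hn⟩ := exists_nat_gt (c / (|D| - ε))
  have hc0 : 0 ≤ c := abs_nonneg _
  have hn0 : (0 : ℝ) < n := lt_of_le_of_lt (div_nonneg hc0 hpos.le) hn
  have hnpos : 0 < n := by exact_mod_cast hn0
  have h1 := key n hnpos
  have h2 : c / n < |D| - ε := by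
    rw [div_lt_iff₀ hn0]
    rw [div_lt_iff₀ hpos] at hn
    linarith
  linarith

end Crest.Agent.Helper75.OT
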