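import Crest.Agent.Helper48.OT.DTLeaves

/-!
# Row 82 (S0109) — WP-DT : the discrete theory as a function of the target measure

`discrete_theory_of` is the statement `Spec.discrete_theory` (the shape consumed by the final
assembly), proved from the statements of the packages L1 (`exists_lagWeights`), LM
(`exists_lagMap`, `lagMap_push`) and SW/M (`discrete_potential_stability`), which are taken as
explicit hypotheses (for the given body `K`), so that this file depends on `Defs` only.

The potential and the Laguerre map are defined as functions of the MEASURE: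
the atoms are `{c | μ {c} ≠ 0}`, the masses are `(μ {c}).toReal`, the weights and the map are
chosen by `Classical.epsilon`, and the potential is normalised to have mean zero.
-/

set_option autoImplicit false

noncomputable section

open MeasureTheory
open scoped ENNReal NNReal RealInnerProductSpace

namespace Crest.Agent.Helper75.OT

namespace DT

open Crest.AnalysisR.OT DTLeaves

variable {d : ℕ}

/-! ### The source measure -/

theorem vol_ne_zero' {K : Set (E d)} (hK : Body K) : volume K ≠ 0 := by
  have h1 : 0 < volume (interior K) := isOpen_interior.measure_pos volume hK.inter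
  exact (h1.trans_le (measure_mono interior_subset)).ne'

theorem vol_ne_top' {K : Set (E d)} (hK : Body K) : volume K ≠ ⊤ :=
  hK.compact.measure_lt_top.ne

theorem rho_prob' {K : Set (E d)} (hK : Body K) : IsProbabilityMeasure (uniformProbOn K) := by
  constructor
  unfold uniformProbOn
  rw [Measure.smul_apply, Measure.restrict_apply_univ, smul_eq_mul]
  exact ENNReal.inv_mul_cancel (vol_ne_zero' hK) (vol_ne_top' hK)

/-- Continuous functions are integrable against the uniform measure of a convex body. -/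
theorem integrable_of_continuous {K : Set (E d)} (hK : Body K) (f : E d → ℝ)
    (hf : Continuous f) : Integrable f (uniformProbOn K) := by
  unfold uniformProbOn
  have h1 : IntegrableOn f K volume := hf.continuousOn.integrableOn_compact hK.compact
  exact Integrable.smul_measure h1 (ENNReal.inv_ne_top.mpr (vol_ne_zero' hK))

/-! ### The potential `lagPot` -/

theorem continuous_lagPot (S : Finset (E d)) (w : E d → ℝ) : Continuous (lagPot S w) := by
  by_cases h : S.Nonempty
  · have : lagPot S w = fun x => S.sup' h (fun c => ⟪x, c⟫ - w c) := by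
      funext x
      unfold lagPot
      rw [dif_pos h]
    rw [this]
    apply Continuous.finset_sup'_apply
    intro c _
    exact (continuous_id.inner continuous_const).sub continuous_const
  · have : lagPot S w = fun _ => 0 := by
      funext x
      unfold lagPot
      rw [dif_neg h]
    rw [this]
    exact continuous_const

theorem le_lagPot' {S : Finset (E d)} (w : E d → ℝ) {c : E d} (hc : c ∈ S) (x : E d) :
    ⟪x, c⟫ - w c ≤ lagPot S w x := by
  unfold lagPot
  rw [dif_pos ⟨c, hc⟩]
  exact Finset.le_sup' (fun c => ⟪x, c⟫ - w c) hc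

theorem lagPot_le_of_argmax {S : Finset (E d)} (w : E d → ℝ) {a x : E d} (ha : a ∈ S)
    (hmax : ∀ c' ∈ S, ⟪x, c'⟫ - w c' ≤ ⟪x, a⟫ - w a) : lagPot S w x ≤ ⟪x, a⟫ - w a := by
  unfold lagPot
  rw [dif_pos ⟨a, ha⟩]
  exact Finset.sup'_le _ _ hmax

/-- The argmax atom is a subgradient of the potential. -/
theorem lagPot_subgrad {S : Finset (E d)} (w : E d → ℝ) {a x : E d} (ha : a ∈ S)
    (hmax : ∀ c' ∈ S, ⟪x, c'⟫ - w c' ≤ ⟪x, a⟫ - w a) (z : E d) :
    lagPot S w x + ⟪a, z - x⟫ ≤ lagPot S w z := by
  have h1 := lagPot_le_of_argmax w ha hmax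
  have h2 := le_lagPot' w ha z
  have h3 : ⟪a, z - x⟫ = ⟪z, a⟫ - ⟪x, a⟫ := by
    rw [inner_sub_right, real_inner_comm a z, real_inner_comm a x]
  linarith

/-! ### Merged masses -/

theorem sum_mergedMass' {ι : Type} [Fintype ι] (y : ι → E d) (m : ι → ℝ) :
    ∑ c ∈ supp y, mergedMass y m c = ∑ i, m i := by
  classical
  unfold mergedMass
  rw [Finset.sum_comm]
  apply Finset.sum_congr rfl
  intro i _
  rw [Finset.sum_ite_eq]
  have : y i ∈ supp y := by
    unfold supp
    exact Finset.mem_image.mpr ⟨i, Finset.mem_univ i, rfl⟩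
  rw [if_pos this]

theorem supp_nonempty {ι : Type} [Fintype ι] (y : ι → E d) (m : ι → ℝ)
    (hsum : ∑ i, m i = 1) : (supp y).Nonempty := by
  classical
  by_contra h
  rw [Finset.not_nonempty_iff_eq_empty] at h
  have h0 : ∑ c ∈ supp y, mergedMass y m c = 0 := by
    rw [h]
    exact Finset.sum_empty
  rw [sum_mergedMass' y m, hsum] at h0
  exact one_ne_zero h0

theorem norm_le_of_mem_supp {ι : Type} [Fintype ι] (y : ι → E d) {M : ℝ}
    (hy : ∀ i, ‖y i‖ ≤ M) {c : E d} (hc : c ∈ supp y) : ‖c‖ ≤ M := by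
  classical
  unfold supp at hc
  obtain ⟨i, -, rfl⟩ := Finset.mem_image.mp hc
  exact hy i

/-! ### Atoms and masses of a measure -/

open Classical in
/-- The atoms of a measure, as a finset (`∅` if there are infinitely many). -/
def atomsOf (μ : Measure (E d)) : Finset (E d) :=
  if h : {c : E d | μ {c} ≠ 0}.Finite then h.toFinset else ∅

/-- The masses of the points. -/
def massOf (μ : Measure (E d)) (c : E d) : ℝ := (μ {c}).toReal

theorem atomsOf_discMeas {ι : Type} [Fintype ι] (y : ι → E d) (m : ι → ℝ)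
    (hm : ∀ i, 0 < m i) : atomsOf (discMeas y m) = supp y := by
  classical
  have hset : {c : E d | discMeas y m {c} ≠ 0} = ↑(supp y) := by
    ext c
    rw [Set.mem_setOf_eq, discMeas_singleton_ne_zero_iff y m hm c, Finset.mem_coe]
  have hfin : {c : E d | discMeas y m {c} ≠ 0}.Finite := by
    rw [hset]
    exact Finset.finite_toSet _
  unfold atomsOf
  rw [dif_pos hfin]
  ext c
  rw [Set.Finite.mem_toFinset, Set.mem_setOf_eq, discMeas_singleton_ne_zero_iff y m hm c]

theorem massOf_discMeas {ι : Type} [Fintype ι] (y : ι → E d) (m : ι → ℝ)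
    (hm : ∀ i, 0 < m i) : massOf (discMeas y m) = mergedMass y m := by
  funext c
  exact toReal_discMeas_singleton y m (fun i => (hm i).le) c

/-! ### Canonical weights, map and potential of a measure -/

/-- Canonical Laguerre weights of a measure. -/
def weightsOf (K : Set (E d)) (μ : Measure (E d)) : E d → ℝ :=
  Classical.epsilon (fun w : E d → ℝ => IsLagWeights K (atomsOf μ) (massOf μ) w)

/-- The property defining a Laguerre map. -/
def IsLagMap (K : Set (E d)) (S : Finset (E d)) (w : E d → ℝ) (L : E d → E d) : Prop :=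
  Measurable L ∧ (∀ x, L x ∈ S) ∧
    (∀ x, ∀ c' ∈ S, ⟪x, c'⟫ - w c' ≤ ⟪x, L x⟫ - w (L x)) ∧
    ∀ c ∈ S, (uniformProbOn K) (L ⁻¹' {c}) = (uniformProbOn K) (Lag K S w c)

/-- Canonical Laguerre map of a measure. -/
def lagOf (K : Set (E d)) (μ : Measure (E d)) : E d → E d :=
  Classical.epsilon (fun L : E d → E d => IsLagMap K (atomsOf μ) (weightsOf K μ) L)

/-- Canonical potential of a measure, normalised to mean zero. -/
def potOf (K : Set (E d)) (μ : Measure (E d)) (x : E d) : ℝ :=
  lagPot (atomsOf μ) (weightsOf K μ) x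
    - ∫ t, lagPot (atomsOf μ) (weightsOf K μ) t ∂(uniformProbOn K)

end DT

open DT DTLeaves Crest.AnalysisR.OT

variable {d : ℕ}

/-- WP-DT: `Spec.discrete_theory`, from the statements of L1 (`hLW`), LM (`hLM`, `hPush`) and
SW/M (`hDPS`) for the body `K`. -/
theorem discrete_theory_of {K : Set (E d)} (hK : Body K)
    (hLW : ∀ (S : Finset (E d)), S.Nonempty → ∀ g : E d → ℝ, (∀ c ∈ S, 0 < g c) →
      ∑ c ∈ S, g c = 1 → ∃ w : E d → ℝ, IsLagWeights K S g w)
    (hLM : ∀ (S : Finset (E d)), S.Nonempty → ∀ w : E d → ℝ,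
      ∃ L : E d → E d, Measurable L ∧ (∀ x, L x ∈ S) ∧
        (∀ x, ∀ c' ∈ S, ⟪x, c'⟫ - w c' ≤ ⟪x, L x⟫ - w (L x)) ∧
        ∀ c ∈ S, (uniformProbOn K) (L ⁻¹' {c}) = (uniformProbOn K) (Lag K S w c))
    (hPush : ∀ (ι : Type) [Fintype ι] (y : ι → E d) (m : ι → ℝ), (∀ i, 0 < m i) →
      ∑ i, m i = 1 → ∀ w : E d → ℝ, IsLagWeights K (supp y) (mergedMass y m) w →
      ∀ L : E d → E d, Measurable L → (∀ x, L x ∈ supp y) →
      (∀ c ∈ supp y,
        (uniformProbOn K) (L ⁻¹' {c}) = (uniformProbOn K) (Lag K (supp y) w c)) →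
      (uniformProbOn K).map L = discMeas y m)
    (hDPS : ∀ (R : ℝ), (∀ x ∈ K, ‖x‖ ≤ R) → ∀ (ι : Type) [Fintype ι] (y z : ι → E d)
      (m : ι → ℝ), (∀ i, 0 < m i) → ∑ i, m i = 1 → ∀ wy wz : E d → ℝ,
      IsLagWeights K (supp y) (mergedMass y m) wy →
      IsLagWeights K (supp z) (mergedMass z m) wz →
      ∃ κ : ℝ, ∫ x, (lagPot (supp y) wy x - lagPot (supp z) wz x - κ) ^ 2 ∂(uniformProbOn K)
        ≤ 5000 * R ^ 2 * ∑ i, m i * ‖y i - z i‖ ^ 2)
    (M : ℝ) (hM : 0 ≤ M) :
    ∃ (C1 : ℝ) (pot : Measure (E d) → E d → ℝ) (lag : Measure (E d) → E d → E d), 0 ≤ C1 ∧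
      (∀ (ι : Type) [Fintype ι] (w : ι → ℝ) (y : ι → E d), (∀ i, 0 < w i) → ∑ i, w i = 1 →
        (∀ i, ‖y i‖ ≤ M) →
          Measurable (lag (discMeas y w)) ∧
          (uniformProbOn K).map (lag (discMeas y w)) = discMeas y w ∧
          (∀ x ∈ K, ‖lag (discMeas y w) x‖ ≤ M) ∧
          (∀ x ∈ K, ∀ z ∈ K,
            pot (discMeas y w) x + ⟪lag (discMeas y w) x, z - x⟫ ≤ pot (discMeas y w) z) ∧
          ∫ x, pot (discMeas y w) x ∂(uniformProbOn K) = 0) ∧
      (∀ (ι : Type) [Fintype ι] (w : ι → ℝ) (y z : ι → E d), (∀ i, 0 < w i) → ∑ i, w i = 1 →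
        (∀ i, ‖y i‖ ≤ M) → (∀ i, ‖z i‖ ≤ M) →
          ∫ x, (pot (discMeas y w) x - pot (discMeas z w) x) ^ 2 ∂(uniformProbOn K)
            ≤ C1 * ∑ i, w i * ‖y i - z i‖ ^ 2) := by
  haveI : IsProbabilityMeasure (uniformProbOn K) := rho_prob' hK
  obtain ⟨R, hR⟩ := hK.compact.isBounded.exists_norm_le
  -- the canonical weights and map of a labelled discrete measure
  have hW : ∀ (ι : Type) [Fintype ι] (w : ι → ℝ) (y : ι → E d), (∀ i, 0 < w i) →
      ∑ i, w i = 1 →
      IsLagWeights K (supp y) (mergedMass y w) (weightsOf K (discMeas y w)) := by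
    intro ι _ w y hw hsum
    have hex : ∃ w' : E d → ℝ, IsLagWeights K (supp y) (mergedMass y w) w' :=
      hLW (supp y) (supp_nonempty y w hsum) (mergedMass y w)
        (fun c hc => mergedMass_pos_of_mem y w hw hc)
        (by rw [sum_mergedMass' y w, hsum])
    have h := Classical.epsilon_spec
      (p := fun w' : E d → ℝ =>
        IsLagWeights K (atomsOf (discMeas y w)) (massOf (discMeas y w)) w')
      (by rw [atomsOf_discMeas y w hw, massOf_discMeas y w hw]; exact hex)
    have h' : IsLagWeights K (atomsOf (discMeas y w)) (massOf (discMeas y w))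
        (weightsOf K (discMeas y w)) := h
    rw [atomsOf_discMeas y w hw, massOf_discMeas y w hw] at h'
    exact h'
  have hL : ∀ (ι : Type) [Fintype ι] (w : ι → ℝ) (y : ι → E d), (∀ i, 0 < w i) →
      ∑ i, w i = 1 →
      IsLagMap K (supp y) (weightsOf K (discMeas y w)) (lagOf K (discMeas y w)) := by
    intro ι _ w y hw hsum
    have hex : ∃ L : E d → E d, IsLagMap K (supp y) (weightsOf K (discMeas y w)) L :=
      hLM (supp y) (supp_nonempty y w hsum) (weightsOf K (discMeas y w))
    have h := Classical.epsilon_spec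
      (p := fun L : E d → E d =>
        IsLagMap K (atomsOf (discMeas y w)) (weightsOf K (discMeas y w)) L)
      (by rw [atomsOf_discMeas y w hw]; exact hex)
    have h' : IsLagMap K (atomsOf (discMeas y w)) (weightsOf K (discMeas y w))
        (lagOf K (discMeas y w)) := h
    rw [atomsOf_discMeas y w hw] at h'
    exact h'
  have hpot : ∀ (ι : Type) [Fintype ι] (w : ι → ℝ) (y : ι → E d), (∀ i, 0 < w i) →
      ∀ x, potOf K (discMeas y w) x = lagPot (supp y) (weightsOf K (discMeas y w)) x
        - ∫ t, lagPot (supp y) (weightsOf K (discMeas y w)) t ∂(uniformProbOn K) := by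
    intro ι _ w y hw x
    unfold potOf
    rw [atomsOf_discMeas y w hw]
  have hint : ∀ (S : Finset (E d)) (w : E d → ℝ), Integrable (lagPot S w) (uniformProbOn K) :=
    fun S w => integrable_of_continuous hK _ (continuous_lagPot S w)
  refine ⟨5000 * R ^ 2, potOf K, lagOf K, by positivity, ?_, ?_⟩
  · intro ι _ w y hw hsum hy
    obtain ⟨hLmeas, hLS, hLmax, hLc⟩ := hL ι w y hw hsum
    refine ⟨hLmeas, ?_, ?_, ?_, ?_⟩
    · exact hPush ι y w hw hsum _ (hW ι w y hw hsum) _ hLmeas hLS hLc
    · intro x _
      exact norm_le_of_mem_supp y hy (hLS x)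
    · intro x _ z _
      rw [hpot ι w y hw x, hpot ι w y hw z]
      have := lagPot_subgrad (weightsOf K (discMeas y w)) (hLS x) (hLmax x) z
      linarith
    · have hfun : potOf K (discMeas y w) = fun x =>
          lagPot (supp y) (weightsOf K (discMeas y w)) x
            - ∫ t, lagPot (supp y) (weightsOf K (discMeas y w)) t ∂(uniformProbOn K) := by
        funext x
        exact hpot ι w y hw x
      rw [hfun, integral_sub (hint _ _) (integrable_const _), integral_const]
      simp
  · intro ι _ w y z hw hsum hy hz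
    obtain ⟨κ, hκ⟩ := hDPS R hR ι y z w hw hsum _ _ (hW ι w y hw hsum) (hW ι w z hw hsum)
    set φy := lagPot (supp y) (weightsOf K (discMeas y w)) with hφy
    set φz := lagPot (supp z) (weightsOf K (discMeas z w)) with hφz
    have hcont : Continuous (fun x => φy x - φz x) :=
      (continuous_lagPot _ _).sub (continuous_lagPot _ _)
    have hf : Integrable (fun x => φy x - φz x) (uniformProbOn K) :=
      integrable_of_continuous hK _ hcont
    have hf2 : Integrable (fun x => (φy x - φz x) ^ 2) (uniformProbOn K) :=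
      integrable_of_continuous hK _ (hcont.pow 2)
    have hmean : ∫ t, (φy t - φz t) ∂(uniformProbOn K)
        = ∫ t, φy t ∂(uniformProbOn K) - ∫ t, φz t ∂(uniformProbOn K) :=
      integral_sub (hint _ _) (hint _ _)
    have hcenter := integral_sub_mean_sq_le (uniformProbOn K) (fun x => φy x - φz x) hf hf2 κ
    have heq : (fun x => (potOf K (discMeas y w) x - potOf K (discMeas z w) x) ^ 2)
        = fun x => (φy x - φz x - ∫ t, (φy t - φz t) ∂(uniformProbOn K)) ^ 2 := by
      funext x
      rw [hpot ι w y hw x, hpot ι w z hw x, hmean]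
      ring
    rw [heq]
    exact hcenter.trans hκ

end Crest.Agent.Helper75.OT
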