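import Crest.Agent.Helper48.OT.DT
import Crest.Agent.Helper66.OT.Interface

/-!
# Row 82 (S0109) — WP-DT in the shape of the final assembly

`discreteTheory_of` restates `discrete_theory_of` as the hypothesis `hDT` of
`Crest.Agent.Helper66.OT.s0109_of_discrete_stmt`
(`∀ M, 0 ≤ M → ∃ C₁, 0 ≤ C₁ ∧ ∃ pot lag, DiscreteTheory K M C₁ pot lag`).
-/

set_option autoImplicit false

noncomputable section

open MeasureTheory
open scoped ENNReal NNReal RealInnerProductSpace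

namespace Crest.Agent.Helper75.OT

open Crest.AnalysisR.OT

variable {d : ℕ}

/-- The two notations for a labelled discrete measure agree. -/
theorem DT.discMeasure_eq_discMeas' {ι : Type} [Fintype ι] (w : ι → ℝ) (y : ι → E d) :
    Crest.Agent.Helper66.OT.discMeasure w y = discMeas y w := rfl

/-- WP-DT in the shape consumed by helper66's limit passage. -/
theorem discreteTheory_of {K : Set (E d)} (hK : Body K)
    (hLW : ∀ (S : Finset (E d)), S.Nonempty → ∀ g : E d → ℝ, (∀ c ∈ S, 0 < g c) →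
      ∑ c ∈ S, g c = 1 → ∃ w : E d → ℝ, IsLagWeights K S g w)
    (hLM : ∀ (S : Finset (E d)), S.Nonempty → ∀ w : E d → ℝ,
      ∃ L : E d → E d, Measurable L ∧ (∀ x, L x ∈ S) ∧
        (∀ x, ∀ c' ∈ S, ⟪x, c'⟫ - w c' ≤ ⟪x, L x⟫ - w (L x)) ∧
        ∀ c ∈ S, (uniformProbOn K) (L ⁻¹' {c}) = (uniformProbOn K) (Lag K S w c))
    (hPush : ∀ (ι : Type) [Fintype ι] (y : ι → E d) (m : ι → ℝ), (∀ i, 0 < m i) →
      ∑ i, m i = 1 → ∀ w : E d → ℝ, IsLagWeights K (supp y) (mergedMass y m) w →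
      ∀ L : E d → E d, Measurable L → (∀ x, L x ∈ supp y) →
      (∀ c ∈ supp y,
        (uniformProbOn K) (L ⁻¹' {c}) = (uniformProbOn K) (Lag K (supp y) w c)) →
      (uniformProbOn K).map L = discMeas y m)
    (hDPS : ∀ (R : ℝ), (∀ x ∈ K, ‖x‖ ≤ R) → ∀ (ι : Type) [Fintype ι] (y z : ι → E d)
      (m : ι → ℝ), (∀ i, 0 < m i) → ∑ i, m i = 1 → ∀ wy wz : E d → ℝ,
      IsLagWeights K (supp y) (mergedMass y m) wy →
      IsLagWeights K (supp z) (mergedMass z m) wz →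
      ∃ κ : ℝ, ∫ x, (lagPot (supp y) wy x - lagPot (supp z) wz x - κ) ^ 2 ∂(uniformProbOn K)
        ≤ 5000 * R ^ 2 * ∑ i, m i * ‖y i - z i‖ ^ 2) :
    ∀ M : ℝ, 0 ≤ M → ∃ C₁ : ℝ, 0 ≤ C₁ ∧
      ∃ pot lag, Crest.Agent.Helper66.OT.DiscreteTheory K M C₁ pot lag := by
  intro M hM
  obtain ⟨C1, pot, lag, hC1, ha, hb⟩ := discrete_theory_of hK hLW hLM hPush hDPS M hM
  refine ⟨C1, hC1, pot, lag, ?_, ?_⟩
  · intro ι _ w y hw hsum hy
    exact ha ι w y hw hsum hy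
  · intro ι _ w y z hw hsum hy hz
    exact hb ι w y z hw hsum hy hz

end Crest.Agent.Helper75.OT
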