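import Crest.Agent.Helper75.OT.Defs

/-!
# Row 82 (S0109) — leaves for WP-DT (discrete theory as a function of the measure)

* point masses and atoms of a labelled discrete measure `discMeas y m` (proved directly from the
  definition, no dependency on other packages);
* centering: the mean minimises the quadratic deviation on a probability space.
-/

set_option autoImplicit false

noncomputable section

open MeasureTheory
open scoped ENNReal NNReal RealInnerProductSpace

namespace Crest.Agent.Helper75.OT

namespace DTLeaves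

open Crest.AnalysisR.OT

variable {d : ℕ}

theorem mergedMass_nonneg {ι : Type} [Fintype ι] (y : ι → E d) (m : ι → ℝ) (hm : ∀ i, 0 ≤ m i)
    (c : E d) : 0 ≤ mergedMass y m c := by
  classical
  unfold mergedMass
  apply Finset.sum_nonneg
  intro i _
  split_ifs
  · exact hm i
  · exact le_rfl

theorem mergedMass_eq_zero_of_not_mem {ι : Type} [Fintype ι] (y : ι → E d) (m : ι → ℝ)
    {c : E d} (hc : c ∉ supp y) : mergedMass y m c = 0 := by
  classical
  unfold mergedMass
  apply Finset.sum_eq_zero
  intro i _
  have : y i ≠ c := by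
    intro h
    apply hc
    unfold supp
    exact Finset.mem_image.mpr ⟨i, Finset.mem_univ i, h⟩
  simp [this]

theorem mergedMass_pos_of_mem {ι : Type} [Fintype ι] (y : ι → E d) (m : ι → ℝ)
    (hm : ∀ i, 0 < m i) {c : E d} (hc : c ∈ supp y) : 0 < mergedMass y m c := by
  classical
  unfold supp at hc
  obtain ⟨i, -, hi⟩ := Finset.mem_image.mp hc
  unfold mergedMass
  have hnn : ∀ j ∈ (Finset.univ : Finset ι), 0 ≤ (if y j = c then m j else 0) := by
    intro j _
    split_ifs
    · exact (hm j).le
    · exact le_rfl
  have hle := Finset.single_le_sum hnn (Finset.mem_univ i)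
  have hi' : (if y i = c then m i else 0) = m i := by simp [hi]
  rw [hi'] at hle
  exact lt_of_lt_of_le (hm i) hle

/-- Point masses of a labelled discrete measure. -/
theorem discMeas_singleton' {ι : Type} [Fintype ι] (y : ι → E d) (m : ι → ℝ)
    (hm : ∀ i, 0 ≤ m i) (c : E d) :
    discMeas y m {c} = ENNReal.ofReal (mergedMass y m c) := by
  classical
  unfold discMeas mergedMass
  rw [Measure.coe_finsetSum, Finset.sum_apply]
  rw [ENNReal.ofReal_sum_of_nonneg]
  · apply Finset.sum_congr rfl
    intro i _
    rw [Measure.smul_apply, Measure.dirac_apply' _ (measurableSet_singleton c)]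
    by_cases h : y i = c
    · simp [h]
    · simp [h]
  · intro i _
    split_ifs
    · exact hm i
    · exact le_rfl

theorem toReal_discMeas_singleton {ι : Type} [Fintype ι] (y : ι → E d) (m : ι → ℝ)
    (hm : ∀ i, 0 ≤ m i) (c : E d) :
    (discMeas y m {c}).toReal = mergedMass y m c := by
  rw [discMeas_singleton' y m hm c, ENNReal.toReal_ofReal (mergedMass_nonneg y m hm c)]

theorem discMeas_singleton_ne_zero_iff {ι : Type} [Fintype ι] (y : ι → E d) (m : ι → ℝ)
    (hm : ∀ i, 0 < m i) (c : E d) :
    discMeas y m {c} ≠ 0 ↔ c ∈ supp y := by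
  rw [discMeas_singleton' y m (fun i => (hm i).le) c]
  constructor
  · intro h
    by_contra hc
    apply h
    rw [mergedMass_eq_zero_of_not_mem y m hc]
    simp
  · intro hc
    have := mergedMass_pos_of_mem y m hm hc
    simp [this]

/-- The support of a labelled configuration with positive masses is determined by the measure. -/
theorem supp_eq_of_discMeas_eq {ι ι' : Type} [Fintype ι] [Fintype ι'] (y : ι → E d)
    (m : ι → ℝ) (y' : ι' → E d) (m' : ι' → ℝ) (hm : ∀ i, 0 < m i) (hm' : ∀ i, 0 < m' i)
    (h : discMeas y m = discMeas y' m') : supp y = supp y' := by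
  ext c
  rw [← discMeas_singleton_ne_zero_iff y m hm c, ← discMeas_singleton_ne_zero_iff y' m' hm' c, h]

/-- Expansion of the quadratic deviation from a constant on a probability space. -/
theorem integral_sub_const_sq {α : Type} [MeasurableSpace α] (ρ : Measure α)
    [IsProbabilityMeasure ρ] (f : α → ℝ) (hf : Integrable f ρ)
    (hf2 : Integrable (fun x => f x ^ 2) ρ) (a : ℝ) :
    ∫ x, (f x - a) ^ 2 ∂ρ = ∫ x, f x ^ 2 ∂ρ - 2 * a * ∫ x, f x ∂ρ + a ^ 2 := by
  have h1 : (fun x => (f x - a) ^ 2) = fun x => (f x ^ 2 - 2 * a * f x) + a ^ 2 := by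
    funext x; ring
  have hg : Integrable (fun x => 2 * a * f x) ρ := hf.const_mul _
  have hsub : Integrable (fun x => f x ^ 2 - 2 * a * f x) ρ := hf2.sub hg
  rw [h1, integral_add hsub (integrable_const _), integral_sub hf2 hg, integral_const_mul,
    integral_const]
  simp

/-- Centering: the mean minimises the quadratic deviation. -/
theorem integral_sub_mean_sq_le {α : Type} [MeasurableSpace α] (ρ : Measure α)
    [IsProbabilityMeasure ρ] (f : α → ℝ) (hf : Integrable f ρ)
    (hf2 : Integrable (fun x => f x ^ 2) ρ) (κ : ℝ) :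
    ∫ x, (f x - ∫ t, f t ∂ρ) ^ 2 ∂ρ ≤ ∫ x, (f x - κ) ^ 2 ∂ρ := by
  rw [integral_sub_const_sq ρ f hf hf2, integral_sub_const_sq ρ f hf hf2]
  nlinarith [sq_nonneg (∫ t, f t ∂ρ - κ)]

end DTLeaves

end Crest.Agent.Helper75.OT
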